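import Vale.Agent.P224.PO.LawNumO
import Vale.Agent.P224.PO.Cst

/-!
Constants: the normalization of the flux in odd dimensions 17, ..., 35.
-/

namespace Vale.Agent.P224.R2.H567

open Vale.Agent.P224 Vale.Agent.P224.UE Vale.Agent.P224.PO

lemma K17 : KH 17 = 4294967296 / 6435 / Real.pi := KHn_17

lemma K19 : KH 19 = 34359738368 / 12155 / Real.pi := KHn_19

lemma K21 : KH 21 = 549755813888 / 46189 / Real.pi := KHn_21

lemma K23 : KH 23 = 4398046511104 / 88179 / Real.pi := KHn_23

lemma K25 : KH 25 = 140737488355328 / 676039 / Real.pi := KHn_25

lemma K27 : KH 27 = 1125899906842624 / 1300075 / Real.pi := KHn_27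

lemma K29 : KH 29 = 18014398509481984 / 5014575 / Real.pi := KHn_29

lemma K31 : KH 31 = 144115188075855872 / 9694845 / Real.pi := by
  have := KH_rec (m := 29) (by norm_num)
  rw [K29] at this
  norm_num at this
  rw [this]
  have := Real.pi_pos
  field_simp
  try norm_num

lemma K33 : KH 33 = 18446744073709551616 / 300540195 / Real.pi := by
  have := KH_rec (m := 31) (by norm_num)
  rw [K31] at this
  norm_num at this
  rw [this]
  have := Real.pi_pos
  field_simp
  try norm_num

lemma K35 : KH 35 = 147573952589676412928 / 583401555 / Real.pi := by
  have := KH_rec (m := 33) (by norm_num)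
  rw [K33] at this
  norm_num at this
  rw [this]
  have := Real.pi_pos
  field_simp
  try norm_num

lemma K37 : KH 37 = 2361183241434822606848 / 2268783825 / Real.pi := by
  have := KH_rec (m := 35) (by norm_num)
  rw [K35] at this
  norm_num at this
  rw [this]
  have := Real.pi_pos
  field_simp
  try norm_num

lemma K39 : KH 39 = 18889465931478580854784 / 4418157975 / Real.pi := by
  have := KH_rec (m := 37) (by norm_num)
  rw [K37] at this
  norm_num at this
  rw [this]
  have := Real.pi_pos
  field_simp
  try norm_num

lemma K41 : KH 41 = 604462909807314587353088 / 34461632205 / Real.pi := by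
  have := KH_rec (m := 39) (by norm_num)
  rw [K39] at this
  norm_num at this
  rw [this]
  have := Real.pi_pos
  field_simp
  try norm_num

lemma K43 : KH 43 = 4835703278458516698824704 / 67282234305 / Real.pi := by
  have := KH_rec (m := 41) (by norm_num)
  rw [K41] at this
  norm_num at this
  rw [this]
  have := Real.pi_pos
  field_simp
  try norm_num

lemma K45 : KH 45 = 77371252455336267181195264 / 263012370465 / Real.pi := by
  have := KH_rec (m := 43) (by norm_num)
  rw [K43] at this
  norm_num at this
  rw [this]
  have := Real.pi_pos
  field_simp
  try norm_num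

lemma K47 : KH 47 = 618970019642690137449562112 / 514589420475 / Real.pi := by
  have := KH_rec (m := 45) (by norm_num)
  rw [K45] at this
  norm_num at this
  rw [this]
  have := Real.pi_pos
  field_simp
  try norm_num

lemma K49 : KH 49 = 39614081257132168796771975168 / 8061900920775 / Real.pi := by
  have := KH_rec (m := 47) (by norm_num)
  rw [K47] at this
  norm_num at this
  rw [this]
  have := Real.pi_pos
  field_simp
  try norm_num

lemma K51 : KH 51 = 316912650057057350374175801344 / 15801325804719 / Real.pi := by
  have := KH_rec (m := 49) (by norm_num)
  rw [K49] at this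
  norm_num at this
  rw [this]
  have := Real.pi_pos
  field_simp
  try norm_num

lemma K53 : KH 53 = 5070602400912917605986812821504 / 61989816618513 / Real.pi := by
  have := KH_rec (m := 51) (by norm_num)
  rw [K51] at this
  norm_num at this
  rw [this]
  have := Real.pi_pos
  field_simp
  try norm_num

lemma K55 : KH 55 = 40564819207303340847894502572032 / 121683714103007 / Real.pi := by
  have := KH_rec (m := 53) (by norm_num)
  rw [K53] at this
  norm_num at this
  rw [this]
  have := Real.pi_pos
  field_simp
  try norm_num

lemma K57 : KH 57 = 1298074214633706907132624082305024 / 956086325095055 / Real.pi := by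
  have := KH_rec (m := 55) (by norm_num)
  rw [K55] at this
  norm_num at this
  rw [this]
  have := Real.pi_pos
  field_simp
  try norm_num

lemma K59 : KH 59 = 10384593717069655257060992658440192 / 1879204156221315 / Real.pi := by
  have := KH_rec (m := 57) (by norm_num)
  rw [K57] at this
  norm_num at this
  rw [this]
  have := Real.pi_pos
  field_simp
  try norm_num

lemma K61 : KH 61 = 166153499473114484112975882535043072 / 7391536347803839 / Real.pi := by
  have := KH_rec (m := 59) (by norm_num)
  rw [K59] at this
  norm_num at this
  rw [this]
  have := Real.pi_pos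
  field_simp
  try norm_num

end Vale.Agent.P224.R2.H567
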