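import Vale.Agent.P224.R2.H567.T17.Main
import Vale.Agent.P224.R2.H567.T19.Main
import Vale.Agent.P224.R2.H567.T21.Main
import Vale.Agent.P224.R2.H567.T23.Main
import Vale.Agent.P224.R2.H567.T25.Main
import Vale.Agent.P224.R2.H567.T27.Main
import Vale.Agent.P224.R2.H567.T29.Main
import Vale.Agent.P224.R2.H567.T31.Main
import Vale.Agent.P224.R2.H567.T33.Main
import Vale.Agent.P224.R2.H567.T35.Main
import Vale.Agent.P224.RIG.Least

/-!
**The far range in the odd dimensions 17, ..., 35**: a closed minimal hypersurface of volume at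
most the least Clifford volume has `|∫ N| < 1 / 50 * volume`.
-/

namespace Vale.Agent.P224.R2.H567

open MeasureTheory Set Filter Function Module Vale.Agent.P224 Vale.Agent.P224.UE
open scoped Topology RealInnerProductSpace ENNReal ContDiff Manifold

section

variable {V W M : Type*} [NormedAddCommGroup V] [InnerProductSpace ℝ V] [FiniteDimensional ℝ V]
  [NormedAddCommGroup W] [InnerProductSpace ℝ W] [FiniteDimensional ℝ W]
  [TopologicalSpace M] [ChartedSpace V M]
  [MeasurableSpace V] [BorelSpace V] [MeasurableSpace M] [BorelSpace M]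
  [IsManifold 𝓘(ℝ, V) ∞ M] [CompactSpace M] [T2Space M] [ConnectedSpace M]
  [MeasurableSpace W] [BorelSpace W]

/-- **The far range, odd dimensions from 17 to 35.** -/
theorem far_thin50 {h : ℕ} (h1 : 8 ≤ h) (h2 : h ≤ 17) (hV : finrank ℝ V = 2 * h + 1)
    (hW : finrank ℝ W = finrank ℝ V + 2)
    {F : M → W} (hF : SphImm V F) (hmin : ∀ x n, IsUnitNormal V F x n → meanCurv V F x n = 0)
    (hng : ¬ ∃ a : W, a ≠ 0 ∧ ∀ x, ⟪F x, a⟫ = 0)
    {N : M → W} (hNs : ContMDiff 𝓘(ℝ, V) 𝓘(ℝ, W) ∞ N) (hN : ∀ x, IsUnitNormal V F x (N x))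
    (htop : ‖∫ x, N x ∂(volM V F)‖ ≤ sphereVol (finrank ℝ V))
    (hhi : (volM V F).real univ ≤ leastClifford (finrank ℝ V)) :
    ‖∫ x, N x ∂(volM V F)‖ < 1 / 50 * (volM V F).real univ := by
  interval_cases h
  · exact T17.far_lc hV hW hF hmin hng hNs hN htop hhi
  · exact T19.far_lc hV hW hF hmin hng hNs hN htop hhi
  · exact T21.far_lc hV hW hF hmin hng hNs hN htop hhi
  · exact T23.far_lc hV hW hF hmin hng hNs hN htop hhi
  · exact T25.far_lc hV hW hF hmin hng hNs hN htop hhi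
  · exact T27.far_lc hV hW hF hmin hng hNs hN htop hhi
  · exact T29.far_lc hV hW hF hmin hng hNs hN htop hhi
  · exact T31.far_lc hV hW hF hmin hng hNs hN htop hhi
  · exact T33.far_lc hV hW hF hmin hng hNs hN htop hhi
  · exact T35.far_lc hV hW hF hmin hng hNs hN htop hhi

/-- the same in the form of the final assembly -/
theorem far_thin50_ratio {h : ℕ} (h1 : 8 ≤ h) (h2 : h ≤ 17) (hV : finrank ℝ V = 2 * h + 1)
    (hW : finrank ℝ W = finrank ℝ V + 2)
    {F : M → W} (hF : SphImm V F) (hmin : ∀ x n, IsUnitNormal V F x n → meanCurv V F x n = 0)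
    (hng : ¬ ∃ a : W, a ≠ 0 ∧ ∀ x, ⟪F x, a⟫ = 0)
    {N : M → W} (hNs : ContMDiff 𝓘(ℝ, V) 𝓘(ℝ, W) ∞ N) (hN : ∀ x, IsUnitNormal V F x (N x))
    (htop : ‖∫ x, N x ∂(volM V F)‖ ≤ sphereVol (finrank ℝ V))
    (hhi : (volM V F).real univ ≤ oddRatio h * sphereVol (finrank ℝ V)) :
    ‖∫ x, N x ∂(volM V F)‖ < 1 / 50 * (volM V F).real univ := by
  refine far_thin50 h1 h2 hV hW hF hmin hng hNs hN htop (hhi.trans (le_of_eq ?_))
  rw [RIG.leastClifford_eq (by omega), hV, ← clifford_odd]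
  congr 1
  omega

end

end Vale.Agent.P224.R2.H567
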