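import Vale.Agent.P224.R2.H178.LawU
import Vale.Agent.P224.R2.H389.Far
import Vale.Agent.P224.PO.RowsO
import Vale.Agent.P224.PO.LawNumO
import Vale.Agent.P224.PO.Cst

/-!
The far range from a certificate with the direction of the mean normal: the value of the rows in
closed form, the numerical law, and the theorem.
-/

namespace Vale.Agent.P224.R2.H567

open MeasureTheory Set Filter Function Module Vale.Agent.P224 Vale.Agent.P224.UE
open Vale.Agent.P224.POS Vale.Agent.P224.PO Vale.Agent.P224.R2.H178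
open Vale.Agent.P224.SM2 hiding ker
open scoped Topology RealInnerProductSpace ENNReal ContDiff Manifold

set_option linter.unusedSectionVars false

/-! ### The value of the rows -/

/-- the moments times `m + 1` -/
def momQ (m : Nat) (a b : Nat) : PE :=
  match a, b with
  | 0, 0 => PE.c (m + 1)
  | 1, 0 => PE.mul (PE.c (m + 1)) (PE.v 0)
  | 2, 0 => PE.mul (PE.c (m + 1)) (PE.v 1)
  | 0, 2 => PE.sub (PE.c 1) (PE.v 1)
  | _, _ => PE.c 0

lemma ev_momQ (f : ℕ → ℝ) (m a b : ℕ) :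
    PE.ev f (momQ m a b) = (m + 1) * momU m (f 0) (f 1) a b := by
  have hm : (m : ℝ) + 1 ≠ 0 := by positivity
  unfold momQ momU
  rcases a with _ | _ | _ | a <;> rcases b with _ | _ | _ | b <;>
    simp only [PE.ev_c, PE.ev_mul, PE.ev_sub, PE.ev_v] <;> push_cast <;>
    first | ring1 | field_simp

/-- `m + 1` times the value of a term -/
def tvU (m : Nat) (T : HTerm) : PE :=
  Bool.rec (motive := fun _ => PE)
    (PE.mul (Bool.rec (motive := fun _ => PE) (PE.c (-1)) (PE.c 1) (decide (T.fam = 0)))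
      (momQ m T.kn T.kx))
    (PE.c 0) (T.sub m)

lemma ev_tvU (f : ℕ → ℝ) (m : ℕ) (T : HTerm) :
    PE.ev f (tvU m T) = (m + 1) * VU m T (f 0) (f 1) := by
  unfold tvU VU
  cases h : T.sub m with
  | true => simp
  | false =>
    simp only [Bool.false_eq_true, if_false]
    by_cases hf : T.fam = 0
    · simp only [hf, decide_true, if_true]
      rw [PE.ev_mul, PE.ev_c, ev_momQ]
      push_cast
      ring
    · simp only [hf, decide_false, if_false]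
      rw [PE.ev_mul, PE.ev_c, ev_momQ]
      push_cast
      ring

/-- `m + 1` times the value of the list -/
def lvU (m : Nat) (l : List (Int × HTerm)) : PE :=
  List.rec (motive := fun _ => PE) (PE.c 0)
    (fun cT _ ih => PE.add (PE.mul (PE.c cT.1) (tvU m cT.2)) ih) l

lemma ev_lvU (f : ℕ → ℝ) (m : ℕ) {D : Int} (hD : D ≠ 0) (l : List (Int × HTerm)) :
    PE.ev f (lvU m l) = (m + 1) * D * hvalU m (rlH D l) (f 0) (f 1) := by
  have hD' : (D : ℝ) ≠ 0 := by exact_mod_cast hD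
  induction l with
  | nil => simp [lvU, hvalU, rlH]
  | cons cT l ih =>
    have e1 : lvU m (cT :: l) = PE.add (PE.mul (PE.c cT.1) (tvU m cT.2)) (lvU m l) := rfl
    rw [e1, PE.ev_add, PE.ev_mul, PE.ev_c, ev_tvU, ih]
    simp only [hvalU, rlH, List.map_cons, List.sum_cons]
    field_simp

/-- the closed form -/
def qvU (h0 h1 h2 : Int) : PE :=
  PE.add (PE.add (PE.c h0) (PE.mul (PE.c h1) (PE.v 0))) (PE.mul (PE.c h2) (PE.v 1))

/-- The value of a list in closed form, verified by the kernel. -/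
theorem hvalU_eq {m : ℕ} {D : Int} (hD : D ≠ 0) {l : List (Int × HTerm)} {h0 h1 h2 : Int}
    (h : chk [] (PE.sub (lvU m l) (qvU h0 h1 h2)) = true) (ν ρ : ℝ) :
    (m + 1) * D * hvalU m (rlH D l) ν ρ = h0 + h1 * ν + h2 * ρ := by
  have h3 := ev_eq_of_chk h (fun i => ([ν, ρ] : List ℝ).getD i 0) (fun i hi =>
    List.getD_eq_default _ _ (by simp at hi ⊢; omega))
  have e0 : ([ν, ρ] : List ℝ).getD 0 0 = ν := rfl
  have e1 : ([ν, ρ] : List ℝ).getD 1 0 = ρ := rfl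
  rw [ev_lvU _ m hD] at h3
  unfold qvU at h3
  simp only [PE.ev_add, PE.ev_mul, PE.ev_c, PE.ev_v, e0, e1] at h3
  exact h3

/-! ### The numerical law -/

lemma quad_neg {a b c ν0 ν1 ν : ℝ} (hc : 0 ≤ c) (h0 : a + b * ν0 + c * ν0 ^ 2 < 0)
    (h1 : a + b * ν1 + c * ν1 ^ 2 < 0) (hν0 : ν0 ≤ ν) (hν1 : ν ≤ ν1) :
    a + b * ν + c * ν ^ 2 < 0 := by
  rcases eq_or_lt_of_le (hν0.trans hν1) with h | h
  · have : ν = ν0 := le_antisymm (by rw [h]; exact hν1) hν0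
    rw [this]
    exact h0
  · have h2 : (ν1 - ν0) * (a + b * ν + c * ν ^ 2)
        = (ν1 - ν) * (a + b * ν0 + c * ν0 ^ 2) + (ν - ν0) * (a + b * ν1 + c * ν1 ^ 2)
          - c * ((ν - ν0) * (ν1 - ν) * (ν1 - ν0)) := by ring
    have h3 : 0 ≤ c * ((ν - ν0) * (ν1 - ν) * (ν1 - ν0)) :=
      mul_nonneg hc (mul_nonneg (mul_nonneg (by linarith) (by linarith)) (by linarith))
    have h4 : (ν1 - ν) * (a + b * ν0 + c * ν0 ^ 2) + (ν - ν0) * (a + b * ν1 + c * ν1 ^ 2) < 0 := by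
      rcases eq_or_lt_of_le hν0 with h5 | h5
      · rw [← h5, sub_self, zero_mul, add_zero]
        exact mul_neg_of_pos_of_neg (by linarith) h0
      · have h6 : (ν1 - ν) * (a + b * ν0 + c * ν0 ^ 2) ≤ 0 :=
          mul_nonpos_of_nonneg_of_nonpos (by linarith) h0.le
        have h7 : (ν - ν0) * (a + b * ν1 + c * ν1 ^ 2) < 0 :=
          mul_neg_of_pos_of_neg (by linarith) h1
        linarith
    by_contra hcon
    rw [not_lt] at hcon
    have := mul_nonneg (sub_nonneg.2 h.le) hcon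
    rw [h2] at this
    linarith

/-- **The numerical law**: value `T (B0 + B1 ν + B2 ν ^ 2 + (B3 + B4 ν) ρ) + K (H0 + H1 ν + H2 ρ)`
on `ν0 ≤ ν ≤ ν1`, `ν ^ 2 ≤ ρ ≤ 1`. -/
theorem law_u {B0 B1 B2 B3 B4 H0 H1 H2 C Kl K ν0 ν1 β : ℝ} (hC : 0 ≤ C) (hν0 : 0 ≤ ν0)
    (hν1 : ν1 ≤ 1)
    (hKl : Kl ≤ K) (hB2 : 0 ≤ B2) (hB3 : 0 ≤ B3) (hB1 : B1 ≤ 0)
    (hB : 0 ≤ B0 + B1 * ν1 - |B4|) (hH1 : 0 ≤ H1) (hH2 : H2 ≤ 0) (hH : H0 + H1 * ν1 ≤ 0)
    (hβ0 : B4 * ν0 ≤ β) (hβ1 : B4 * ν1 ≤ β)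
    (c1 : 0 ≤ C * (B2 + B3 + β) + Kl * H2)
    (a0 : (C * (B0 + B3) + Kl * (H0 + H2)) + (C * (B1 + B4) + Kl * H1) * ν0 + (C * B2) * ν0 ^ 2 < 0)
    (a1 : (C * (B0 + B3) + Kl * (H0 + H2)) + (C * (B1 + B4) + Kl * H1) * ν1 + (C * B2) * ν1 ^ 2 < 0)
    (d0 : (C * B0 + Kl * H0) + (C * B1 + Kl * H1) * ν0
      + (C * (B2 + B3 + β) + Kl * H2) * ν0 ^ 2 < 0)
    (d1 : (C * B0 + Kl * H0) + (C * B1 + Kl * H1) * ν1
      + (C * (B2 + B3 + β) + Kl * H2) * ν1 ^ 2 < 0)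
    {T ν ρ : ℝ} (hTC : T ≤ C) (h0 : ν0 ≤ ν) (h1 : ν ≤ ν1) (h2 : ν ^ 2 ≤ ρ)
    (h3 : ρ ≤ 1) :
    T * (B0 + B1 * ν + B2 * ν ^ 2 + (B3 + B4 * ν) * ρ) + K * (H0 + H1 * ν + H2 * ρ) < 0 := by
  have hν : 0 ≤ ν := hν0.trans h0
  have hρ : 0 ≤ ρ := (sq_nonneg ν).trans h2
  have hB0 : 0 ≤ B0 + B1 * ν + B2 * ν ^ 2 + (B3 + B4 * ν) * ρ := by
    have e1 : B1 * ν1 ≤ B1 * ν := mul_le_mul_of_nonpos_left h1 hB1
    have e2 : 0 ≤ B2 * ν ^ 2 := by positivity
    have e3 : 0 ≤ B3 * ρ := by positivity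
    have e4 : ν * ρ ≤ 1 := by
      have : ν ≤ 1 := h1.trans hν1
      calc ν * ρ ≤ 1 * 1 := mul_le_mul this h3 hρ zero_le_one
        _ = 1 := one_mul 1
    have e5 : -|B4| ≤ B4 * (ν * ρ) := by
      have h5 : |B4 * (ν * ρ)| ≤ |B4| * 1 := by
        rw [abs_mul, abs_of_nonneg (mul_nonneg hν hρ)]
        exact mul_le_mul_of_nonneg_left e4 (abs_nonneg _)
      have h6 := (abs_le.1 h5).1
      linarith
    nlinarith
  have hH0 : H0 + H1 * ν + H2 * ρ ≤ 0 := by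
    have e1 : H1 * ν ≤ H1 * ν1 := mul_le_mul_of_nonneg_left h1 hH1
    have e2 : H2 * ρ ≤ 0 := mul_nonpos_of_nonpos_of_nonneg hH2 hρ
    linarith
  have g1 := mul_le_mul_of_nonneg_right hTC hB0
  have g2 := mul_le_mul_of_nonpos_right hKl hH0
  refine lt_of_le_of_lt (add_le_add g1 g2) ?_
  -- linear in ρ
  have q1 := quad_neg (by positivity : 0 ≤ C * B2) a0 a1 h0 h1
  have q2 := quad_neg c1 d0 d1 h0 h1
  have q3 : B4 * ν ≤ β := by
    rcases le_total 0 B4 with h | h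
    · exact (mul_le_mul_of_nonneg_left h1 h).trans hβ1
    · exact (mul_le_mul_of_nonpos_left h0 h).trans hβ0
  have hc : 0 ≤ C * (β - B4 * ν) * ν ^ 2 :=
    mul_nonneg (mul_nonneg hC (by linarith)) (sq_nonneg ν)
  rcases eq_or_lt_of_le (h2.trans h3) with h5 | h5
  · have e1 : ρ = 1 := le_antisymm h3 (by rw [← h5]; exact h2)
    rw [e1]
    calc _ = _ := by ring
      _ < 0 := q1
  · have key : (1 - ν ^ 2) * (C * (B0 + B1 * ν + B2 * ν ^ 2 + (B3 + B4 * ν) * ρ)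
        + Kl * (H0 + H1 * ν + H2 * ρ))
        = (ρ - ν ^ 2) * ((C * (B0 + B3) + Kl * (H0 + H2)) + (C * (B1 + B4) + Kl * H1) * ν
            + (C * B2) * ν ^ 2)
          + (1 - ρ) * ((C * B0 + Kl * H0) + (C * B1 + Kl * H1) * ν
            + (C * (B2 + B3 + β) + Kl * H2) * ν ^ 2 - C * (β - B4 * ν) * ν ^ 2) := by ring
    by_contra hcon
    rw [not_lt] at hcon
    have h6 := mul_nonneg (by linarith : 0 ≤ 1 - ν ^ 2) hcon
    rw [key] at h6
    have h7 : (C * B0 + Kl * H0) + (C * B1 + Kl * H1) * ν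
            + (C * (B2 + B3 + β) + Kl * H2) * ν ^ 2 - C * (β - B4 * ν) * ν ^ 2 < 0 := by linarith
    rcases eq_or_lt_of_le h3 with h8 | h8
    · rw [h8, sub_self, zero_mul, add_zero] at h6
      have := mul_neg_of_pos_of_neg (by linarith : 0 < 1 - ν ^ 2) q1
      linarith
    · have h9 := mul_neg_of_pos_of_neg (by linarith : 0 < 1 - ρ) h7
      have h10 : (ρ - ν ^ 2) * ((C * (B0 + B3) + Kl * (H0 + H2)) + (C * (B1 + B4) + Kl * H1) * ν
            + (C * B2) * ν ^ 2) ≤ 0 :=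
        mul_nonpos_of_nonneg_of_nonpos (by linarith) q1.le
      linarith

/-! ### The theorem -/

section

variable {V W M : Type*} [NormedAddCommGroup V] [InnerProductSpace ℝ V] [FiniteDimensional ℝ V]
  [NormedAddCommGroup W] [InnerProductSpace ℝ W] [FiniteDimensional ℝ W]
  [TopologicalSpace M] [ChartedSpace V M]
  [MeasurableSpace V] [BorelSpace V] [MeasurableSpace M] [BorelSpace M]
  [IsManifold 𝓘(ℝ, V) ∞ M] [CompactSpace M] [T2Space M] [ConnectedSpace M]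
  [MeasurableSpace W] [BorelSpace W]

/-- **The far range from a certificate**: if the volume is at most `C |S ^ m|`, then the integral of
the unit normal has norm less than `ν0` times the volume. -/
theorem far_of (hm : 2 ≤ finrank ℝ V) (hW : finrank ℝ W = finrank ℝ V + 2)
    {F : M → W} (hF : SphImm V F) (hmin : ∀ x n, IsUnitNormal V F x n → meanCurv V F x n = 0)
    (hng : ¬ ∃ a : W, a ≠ 0 ∧ ∀ x, ⟪F x, a⟫ = 0)
    {N : M → W} (hNs : ContMDiff 𝓘(ℝ, V) 𝓘(ℝ, W) ∞ N) (hN : ∀ x, IsUnitNormal V F x (N x))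
    (htop : ‖∫ x, N x ∂(volM V F)‖ ≤ sphereVol (finrank ℝ V))
    {C : ℝ} (hC : C ≤ 14352 / 10000)
    (hhi : (volM V F).real univ ≤ C * sphereVol (finrank ℝ V))
    {b0 b1 b2 b3 b4 b5 b6 b7 b8 : ℝ} {l : List (ℝ × HTerm)}
    (hl : ∀ cT ∈ l, cT.2.ok (finrank ℝ V) = true)
    (hpos : ∀ x N y w v : W, ‖v‖ = 1 → ‖x‖ = 1 → ‖N‖ = 1 → ‖y‖ = 1 → ‖w‖ = 1 → ⟪x, N⟫ = 0 →
      ⟪y, w⟫ = 0 → ⟪x, y⟫ < 1 → 0 ≤ W9 b0 b1 b2 b3 b4 b5 b6 b7 b8 (dv x N y w v)
        + hsum (finrank ℝ V) l (dv x N y w v))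
    {ν0 : ℝ} (hν0 : 0 < ν0)
    (hnum : ∀ T ν ρ : ℝ, T ≤ C → ν0 ≤ ν → ν ≤ 1 / 8 → ν ^ 2 ≤ ρ → ρ ≤ 1 →
      T * (b0 + b3 + b2 * ν + b1 * ν ^ 2 + (b4 + b7 * ν) * ρ
          + (b5 + b6) * ν ^ 2 + b8 * ((1 - ρ) / (finrank ℝ V + 1)))
        + KH (finrank ℝ V) * hvalU (finrank ℝ V) l ν ρ < 0) :
    ‖∫ x, N x ∂(volM V F)‖ < ν0 * (volM V F).real univ := by
  have hm0 : 0 < finrank ℝ V := by omega
  have hfin : IsFiniteMeasure (volM V F) := isFiniteMeasure_volM hF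
  have hS0 : 0 < sphereVol (finrank ℝ V) := sphereVol_pos' _
  have hinj : Injective F := by
    by_contra hinj
    have h2 := TwoSide.two_le (by omega) hW hF hmin hinj
    have h3 : C * sphereVol (finrank ℝ V) ≤ 14352 / 10000 * sphereVol (finrank ℝ V) :=
      mul_le_mul_of_nonneg_right hC hS0.le
    linarith
  have hA : 0 < (volM V F).real univ := by
    have h1 := PU.U1413.mainU hm hW hF hmin hng
    have h2 := ENNReal.toReal_mono (measure_ne_top _ _) h1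
    rw [ENNReal.toReal_ofReal (by positivity)] at h2
    refine lt_of_lt_of_le ?_ h2
    positivity
  by_contra hcon
  rw [not_lt] at hcon
  set A := (volM V F).real univ with hAdef
  set I := ∫ x, N x ∂(volM V F) with hI
  have hI0 : 0 < ‖I‖ := lt_of_lt_of_le (by positivity) hcon
  set ν := ‖I‖ / A with hν
  have hνpos : 0 < ν := by positivity
  have h1 : ν0 ≤ ν := by
    rw [hν, le_div_iff₀ hA]
    exact hcon
  -- the range of 389
  have hle : ν ≤ 1 / 8 := by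
    have h2 := H389.far hm hW hF hmin hng hNs hN htop (e := A⁻¹ • I)
      (by rw [smul_smul, mul_inv_cancel₀ hA.ne', one_smul])
      (hhi.trans (mul_le_mul_of_nonneg_right hC hS0.le))
    rw [norm_smul, Real.norm_eq_abs, abs_of_pos (inv_pos.2 hA)] at h2
    rw [hν, div_eq_inv_mul]
    exact h2.le
  -- the law
  obtain ⟨B, hE⟩ := embD_of_inj hm0 hW hF hmin hNs hN hinj
  have hne : Nonempty M := inferInstance
  obtain ⟨ρ, h2, h3, h4⟩ := lawU hE hm (v := ‖I‖⁻¹ • I)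
    (by rw [norm_smul, norm_inv, norm_norm, inv_mul_cancel₀ hI0.ne']) hνpos
    (by
      rw [smul_smul, hν, mul_div_cancel₀ _ hA.ne', mul_inv_cancel₀ hI0.ne', one_smul])
    hA (R := fun _ => 0) continuous_const (b0 := b0) (b1 := b1) (b2 := b2) (b3 := b3)
    (b4 := b4) (b5 := b5) (b6 := b6) (b7 := b7) (b8 := b8) (l := l) hl
    (fun x N y w g1 g2 g3 g4 g5 g6 g7 => by
      rw [sub_zero]
      exact hpos x N y w _ (by rw [norm_smul, norm_inv, norm_norm, inv_mul_cancel₀ hI0.ne'])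
        g1 g2 g3 g4 g5 g6 g7)
  rw [integral_zero] at h4
  have h5 := nonneg_of_mul_nonneg_right h4 hA
  have h6 := hnum (A / sphereVol (finrank ℝ V)) ν ρ (by rw [div_le_iff₀ hS0]; exact hhi) h1 hle h2 h3
  rw [div_mul_eq_mul_div, div_add' _ _ _ hS0.ne', div_lt_iff₀ hS0, zero_mul] at h6
  linarith

end

end Vale.Agent.P224.R2.H567
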