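import Vale.Agent.P224.R2.H567.Sub

/-!
Two more multipliers.
-/

namespace Vale.Agent.P224.R2.H567

open Vale.Agent.P224.UE Vale.Agent.P224.POS Vale.Agent.P224.PO

noncomputable section

/-- `A rr ^ 3 - N (rr ^ 2)`, double roots `3 / 5` and `3 / 4`, times `rr ^ n` -/
def qC (n : Nat) : PE :=
  .mul (.pow (.v 0) n) (.mul
    (.mul (.pow (.sub (.mul (.c 5) (.v 0)) (.c 3)) 2) (.pow (.sub (.mul (.c 4) (.v 0)) (.c 3)) 2))
    (.add (.c 9) (.mul (.v 0) (.add (.c 54) (.mul (.v 0) (.c 20))))))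

lemma qC_nonneg {f : ℕ → ℝ} (h0 : 0 ≤ f 0) (_h1 : f 0 ≤ 1) (n : ℕ) : 0 ≤ PE.ev f (qC n) := by
  unfold qC
  simp only [PE.ev_mul, PE.ev_pow, PE.ev_sub, PE.ev_add, PE.ev_c, PE.ev_v]
  push_cast
  positivity

/-- `A rr ^ 7 - N (rr ^ 2)`, root `1`, double roots `3 / 5` and `3 / 4`, times `rr ^ n` -/
def qD (n : Nat) : PE :=
  .mul (.pow (.v 0) n) (.mul (.mul (.sub (.c 1) (.v 0))
    (.mul (.pow (.sub (.mul (.c 5) (.v 0)) (.c 3)) 2) (.pow (.sub (.mul (.c 4) (.v 0)) (.c 3)) 2)))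
    (.add (.c 369) (.mul (.v 0) (.add (.c 2583) (.mul (.v 0) (.add (.c 6760)
      (.mul (.v 0) (.c 6976))))))))

lemma qD_nonneg {f : ℕ → ℝ} (h0 : 0 ≤ f 0) (h1 : f 0 ≤ 1) (n : ℕ) : 0 ≤ PE.ev f (qD n) := by
  unfold qD
  simp only [PE.ev_mul, PE.ev_pow, PE.ev_sub, PE.ev_add, PE.ev_c, PE.ev_v]
  push_cast
  have h2 : 0 ≤ 1 - f 0 := by linarith
  positivity

end

end Vale.Agent.P224.R2.H567
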