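import Vale.Agent.P224.S7.SosTl
import Vale.Agent.P224.PO.RowsO

/-!
Nonnegativity of a certificate with a unit vector from a verified identity, with arbitrary
multipliers in `rr`; in odd dimension the value terms `rr ^ K` are compared with an even polynomial
of `rr` by the multiplier `q = A rr ^ K - rr ^ (K - 7) N (rr ^ 2) ≥ 0`.
-/

namespace Vale.Agent.P224.R2.H567

open Vale.Agent.P224.UE Vale.Agent.P224.POS Vale.Agent.P224.PO
open scoped RealInnerProductSpace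

noncomputable section

/-- the table of inner products, for a unit vector -/
def tabU : List (List PE) :=
  [[.c 1, .c 0, .c 0, .c 0, .c 0, .c 0],
   [.c 0, .sub (.c 1) (.pow (.v 0) 2), .c 0, .v 1, .v 2, .v 4],
   [.c 0, .c 0, .pow (.v 0) 2, .sub (.c 0) (.v 2), .sub (.c 0) (.v 1), .v 5],
   [.c 0, .v 1, .sub (.c 0) (.v 2), .sub (.c 1) (.v 3), .c 0, .v 6],
   [.c 0, .v 2, .sub (.c 0) (.v 1), .c 0, .v 3, .v 7],
   [.c 0, .v 4, .v 5, .v 6, .v 7, .c 1]]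

/-- the pair data as polynomials of the new data, for a unit vector -/
def sbU (i : ℕ) : PE :=
  match i with
  | 8 => PE.c 1
  | i => sbH i

lemma ev_sbU {d : R9} (h8 : d 8 = 1) (i : ℕ) : PE.ev (vg d) (sbU i) = vh d i := by
  by_cases hi : i = 8
  · subst hi
    have e1 : sbU 8 = PE.c 1 := rfl
    rw [e1, PE.ev_c, vh8, h8, Int.cast_one]
  · have e1 : sbU i = sbH i := by
      unfold sbU
      split
      · exact absurd rfl hi
      · rfl
    rw [e1, ev_sbH]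

lemma ev_sb_sbU {d : R9} (h8 : d 8 = 1) (P : PE) :
    PE.ev (vg d) (PE.sb sbU P) = PE.ev (vh d) P := by
  rw [PE.ev_sb]
  congr 1
  funext i
  exact ev_sbU h8 i

lemma grT_tabU_ge {k l : ℕ} (h : 6 ≤ k ∨ 6 ≤ l) : grT tabU k l = PE.c 0 := by
  unfold grT
  by_cases hk : 6 ≤ k
  · rw [lk_ge _ _ k (by simpa [tabU] using hk)]
    rfl
  · have hl : 6 ≤ l := h.resolve_left hk
    have hk' : k < 6 := not_le.1 hk
    have h6 : ∀ i < 6, (lk (fun _ => ([] : List PE)) tabU i).length = 6 := by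
      intro i hi
      interval_cases i <;> rfl
    rw [lk_ge _ _ l (by rw [h6 k hk']; exact hl)]

lemma sym_tabU {R : Type*} [CommRing R] (f : ℕ → R) (k l : ℕ) :
    PE.ev f (grT tabU k l) = PE.ev f (grT tabU l k) := by
  by_cases h : 6 ≤ k ∨ 6 ≤ l
  · rw [grT_tabU_ge h, grT_tabU_ge h.symm]
  · have hk : k < 6 := by omega
    have hl : l < 6 := by omega
    interval_cases k <;> interval_cases l <;> rfl

lemma ev_grT_tabU {d : R9} (h8 : d 8 = 1) (k l : ℕ) :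
    PE.ev (vg d) (grT tabU k l) = PE.ev (vg d) (grT tabH k l) := by
  by_cases h : 6 ≤ k ∨ 6 ≤ l
  · rw [grT_tabU_ge h, grT_ge h]
  · have hk : k < 6 := by omega
    have hl : l < 6 := by omega
    by_cases h5 : k = 5 ∧ l = 5
    · obtain ⟨rfl, rfl⟩ := h5
      have e1 : grT tabU 5 5 = PE.c 1 := rfl
      have e2 : grT tabH 5 5 = PE.v 8 := rfl
      have e3 : vg d 8 = d 8 := rfl
      rw [e1, e2, PE.ev_c, PE.ev_v, e3, h8, Int.cast_one]
    · interval_cases k <;> interval_cases l <;> first | rfl | exact absurd ⟨rfl, rfl⟩ h5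

section

variable {E : Type*} [NormedAddCommGroup E] [InnerProductSpace ℝ E]

lemma dv8 {v : E} (hv : ‖v‖ = 1) (x N y w : E) : dv x N y w v 8 = 1 := by
  have e1 : dv x N y w v 8 = ⟪v, v⟫ := rfl
  rw [e1, real_inner_self_eq_norm_sq, hv, one_pow]

/-- **Nonnegativity from a verified identity**, unit vector, any nonnegative multipliers. -/
theorem nonneg_of_chkU {P : PE} {L : List (PE × List BlkX)} {Ms : List ℕ} (k : Int) (hk : 0 ≤ k)
    (hid : chkX Ms (PE.sb sbU P) k tabU L = true) (hG : ∀ z ∈ L, GoodX z.2)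
    {x N y w v : E} (hv : ‖v‖ = 1) (hx : ‖x‖ = 1) (hN : ‖N‖ = 1) (hy : ‖y‖ = 1)
    (hw : ‖w‖ = 1) (hxN : ⟪x, N⟫ = 0) (hyw : ⟪y, w⟫ = 0) (hs : ⟪x, y⟫ < 1)
    (hm : ∀ z ∈ L, 0 ≤ PE.ev (vg (dv x N y w v)) z.1) :
    0 ≤ PE.ev (vh (dv x N y w v)) P := by
  have h8 := dv8 hv x N y w
  rw [← ev_sb_sbU h8]
  have hg := isGramT_dv v hx hN hy hw hxN hyw hs
  exact S7.pos_of_chkX k hk hid (fun f k l => sym_tabU f k l) hG
    (fun i hi => vg_ge _ _ (by omega)) ⟨hg.1, fun k l => by rw [ev_grT_tabU h8, hg.2]⟩ hm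

/-- `rr` on pair data -/
lemma vg0_mem {x N y w v : E} (hx : ‖x‖ = 1) (hy : ‖y‖ = 1) :
    0 ≤ vg (dv x N y w v) 0 ∧ vg (dv x N y w v) 0 ≤ 1 := by
  have e0 : dv x N y w v 0 = ⟪x, y⟫ := rfl
  rw [vg0, e0]
  refine ⟨Real.sqrt_nonneg _, ?_⟩
  unfold rr
  rw [Real.sqrt_le_one]
  have h := (abs_le.1 (abs_real_inner_le_norm x y)).1
  rw [hx, hy] at h
  linarith

end

/-- the first multiplier, with the root `1`: `A rr ^ 7 - N (rr ^ 2)`, `N` of degree four, double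
roots `1 / 2` and `2 / 3`, times `rr ^ n` -/
def qA (n : Nat) : PE :=
  .mul (.pow (.v 0) n) (.mul (.mul (.sub (.c 1) (.v 0))
    (.mul (.pow (.sub (.mul (.c 2) (.v 0)) (.c 1)) 2) (.pow (.sub (.mul (.c 3) (.v 0)) (.c 2)) 2)))
    (.add (.c 124) (.mul (.v 0) (.add (.c 992) (.mul (.v 0) (.add (.c 2955)
      (.mul (.v 0) (.c 3459))))))))

lemma qA_nonneg {f : ℕ → ℝ} (h0 : 0 ≤ f 0) (h1 : f 0 ≤ 1) (n : ℕ) : 0 ≤ PE.ev f (qA n) := by
  unfold qA
  simp only [PE.ev_mul, PE.ev_pow, PE.ev_sub, PE.ev_add, PE.ev_c, PE.ev_v]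
  push_cast
  have h2 : 0 ≤ 1 - f 0 := by linarith
  positivity

/-- the second multiplier: `A rr ^ 3 - N (rr ^ 2)`, `N` of degree three, double roots `1 / 2` and
`3 / 4`, times `rr ^ n` -/
def qB (n : Nat) : PE :=
  .mul (.pow (.v 0) n) (.mul
    (.mul (.pow (.sub (.mul (.c 2) (.v 0)) (.c 1)) 2) (.pow (.sub (.mul (.c 4) (.v 0)) (.c 3)) 2))
    (.add (.c 3) (.mul (.v 0) (.add (.c 20) (.mul (.v 0) (.c 8))))))

lemma qB_nonneg {f : ℕ → ℝ} (h0 : 0 ≤ f 0) (_h1 : f 0 ≤ 1) (n : ℕ) : 0 ≤ PE.ev f (qB n) := by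
  unfold qB
  simp only [PE.ev_mul, PE.ev_pow, PE.ev_sub, PE.ev_add, PE.ev_c, PE.ev_v]
  push_cast
  positivity

end

end Vale.Agent.P224.R2.H567
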